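import Vale.Agent.P025.R2.H908.LocNF
import Vale.Agent.P025.R2.H816.LogSys

/-!
# P025 (9.3) + (9.4) (helper908): the logarithmic system and its normal form at all places where
`ψ - u` is a uniformizer, for all structures
-/

open Polynomial TensorProduct P025H373 P025H544 P025H628 Vale.Agent.P019P P025H907 P025H587
  P025H492 P025H816

set_option linter.unusedSectionVars false

universe u v

namespace P025H908

noncomputable section

variable {p : ℕ} [Fact p.Prime] {C : Type u} [NontriviallyNormedField C] [IsUltrametricDist C]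
  [CompleteSpace C] [IsAlgClosed C] [CharZero C] [Algebra ℚ_[p] C]
  {K : Type v} [Field K] [Algebra C K] [CFF C K]

/-- the value of a function determines the order of its translates -/
theorem ord_sub_const_eq_zero {P : Plk C K} {ψ : K} {u b : C}
    (hu : 0 < ord P (ψ - algebraMap C K u)) (hb : b ≠ u) :
    ord P (ψ - algebraMap C K b) = 0 := by
  have h1 : ψ - algebraMap C K b = algebraMap C K (u - b) + (ψ - algebraMap C K u) := by
    rw [map_sub]
    ring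
  have h2 : algebraMap C K (u - b) ≠ 0 :=
    (_root_.map_ne_zero (algebraMap C K)).2 (sub_ne_zero.2 hb.symm)
  have h3 := ord_add_of_lt (P := P) (z := algebraMap C K (u - b)) (w := ψ - algebraMap C K u) h2
    (by
      rw [ord_const]
      exact Or.inr (by omega))
  rw [h1, h3.2, ord_const]

/-- **(9.3) + (9.4).** -/
theorem exists_log_normal_form (hnm : ∀ x : ℚ_[p], ‖algebraMap ℚ_[p] C x‖ = ‖x‖)
    {ψ : K} (hψ : ∀ a : C, ψ ≠ algebraMap C K a) (u : C) (hu : IsIntegral ℚ_[p] u)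
    (S : Set ℤ_[p]) (hS : S.Finite) (l : ℕ) (Der : Derivation C K K) (hD : Der ≠ 0) :
    ∃ (N : ℕ) (α : Fin N → ℤ_[p]) (f : ℕ → K),
      (∀ i, α i ∉ S ∧ algebraMap ℚ_[p] C (α i : ℚ_[p]) ≠ u) ∧
      (∀ m, f m ≠ 0) ∧ (∀ m, ∃ g, g ≠ 0 ∧ f (m + 1) = f m * g ^ p ^ m) ∧
      (∀ m (P : Plk C K), (∀ i, ord P (ψ - algebraMap C K (algebraMap ℚ_[p] C
        (α i : ℚ_[p]))) ≤ 0) → ord P (f m) = 0) ∧
      ∀ (_ : Algebra (RatFunc C) K) (_ : IsScalarTower C (RatFunc C) K)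
        (_ : FiniteDimensional (RatFunc C) K) (D : P025H210.Charts C K) (P : P025H210.Pole C K),
        ord P.1 (ψ - algebraMap C K u) = 1 →
        ∃ (γ₀ : Cˣ) (R : ℝ) (w : C), w ≠ 0 ∧ 1 ≤ R ∧ D.r0 ≤ ‖(γ₀ : C)‖ ^ P.N ∧
          ∀ δ : Cˣ, R ≤ ‖(δ : C)‖ →
            ∃ α : F0 C ≃ₐ[C] F0 C, (∀ x, α x ∈ F2 C ↔ x ∈ F2 C) ∧
              ∀ m : ℕ, ∃ g : F0 C, g ∈ F2 C ∧ g ≠ 0 ∧
                α (D.ψ P (γ₀ * δ) (f m) : F0 C) =
                  (1 + algebraMap C (F0 C) (w * (δ : C)⁻¹ ^ (l + 1)) * (tt C)⁻¹ ^ (l + 1)) *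
                    g ^ p ^ m := by
  obtain ⟨N, α, a, θ, h1, h2, h3, hθ0, hθ, hord⟩ :=
    exists_log_system' hnm hψ u hu S hS l Der hD
  refine ⟨N, α, logEl ψ (fun i => algebraMap ℚ_[p] C (α i : ℚ_[p])) a, h1,
    logEl_ne_zero hψ _ a, h2, h3, fun _ _ _ D P hP => ?_⟩
  have hp : p.Prime := Fact.out
  have hpC : ‖(p : C)‖ < 1 := by
    have h4 := hnm (p : ℚ_[p])
    rw [map_natCast] at h4
    rw [h4]
    exact Padic.norm_p_lt_one
  obtain ⟨s, -, hs⟩ := exists_unif P.1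
  have hDs : Der s ≠ 0 := der_ne_zero hD (nc_of_ord (P := P.1) (z := s) (by omega))
  refine normal_form_prod hp hpC D P
    (fun i : Fin N => ψ - algebraMap C K (algebraMap ℚ_[p] C (α i : ℚ_[p])))
    (fun i => sub_ne_zero.2 (hψ _))
    (fun i => ord_sub_const_eq_zero (by rw [hP]; exact one_pos) (h1 i).2)
    _ (fun m => ⟨Finset.univ, a m, rfl⟩) (fun m => ?_) Der θ hθ hθ0 s hs hDs (l + 1) ?_
  · obtain ⟨g, -, hg⟩ := h2 m
    exact ⟨g, hg⟩
  · rw [hord P.1 hP s hs]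
    push_cast
    ring

end

end P025H908
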