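import Vale.Agent.P025.R2.H907.T2b

/-!
# P025 (S3) (helper908): normal form for sequences with divisibility only near `P`

* `exists_U2`, `exists_U2_prod` : products of powers of finitely many functions without zero or
  pole at `P` are units on all small discs around `P` (uniformly in the exponents);
* `normal_form_prod` : the normal form for sequences of such products (helper907's
  `local_normal_form_core`, no T2a needed).
-/

open Polynomial TensorProduct P025H373 P025H544 P025H628 Vale.Agent.P019P P025H907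

set_option linter.unusedSectionVars false

universe u v

namespace P025H908

noncomputable section

variable {C : Type u} [NontriviallyNormedField C] [IsUltrametricDist C] [CompleteSpace C]
  [IsAlgClosed C] [CharZero C] {K : Type v} [Field K] [Algebra C K]
  [Algebra (RatFunc C) K] [IsScalarTower C (RatFunc C) K]
  [FiniteDimensional (RatFunc C) K] [CFF C K]

/-! ## Functions without zero or pole at `P` -/

/-- a unit of `A2` -/
theorem U2_of_near {x : F0 C} (hx : x ∈ A2 C) {a : C} (ha : a ≠ 0)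
    (h : ‖x - algebraMap C (F0 C) a‖ < ‖a‖) : U2 x := by
  have haF : algebraMap C (F0 C) a ≠ 0 := (_root_.map_ne_zero (algebraMap C (F0 C))).2 ha
  have hk : algebraMap C (F0 C) a⁻¹ * (x - algebraMap C (F0 C) a) ∈ A2 C :=
    (A2 C).mul_mem (const_mem_A2 _) ((A2 C).sub_mem hx (const_mem_A2 _))
  have hk1 : ‖algebraMap C (F0 C) a⁻¹ * (x - algebraMap C (F0 C) a)‖ < 1 := by
    rw [norm_mul, norm_algebraMap_C, norm_inv, inv_mul_lt_iff₀ (norm_pos_iff.2 ha), mul_one]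
    exact h
  have h1 := (U2.const ha).mul (U2.one_add hk hk1)
  have h2 : algebraMap C (F0 C) a *
      (1 + algebraMap C (F0 C) a⁻¹ * (x - algebraMap C (F0 C) a)) = x := by
    rw [map_inv₀]
    field_simp
    ring
  rwa [h2] at h1

/-- an element of `A2` not vanishing at infinity is a unit on small discs. -/
theorem U2_sub2 (w : A2 C) (hw : evInf C w ≠ 0) : ∃ R : ℝ, ∀ (δ : Cˣ) (h1 : 1 ≤ ‖(δ : C)‖),
    R ≤ ‖(δ : C)‖ → U2 (sub2 (δ : C) δ.ne_zero h1 ⟨(w : F0 C), mem_F2_of_A2 w.2⟩ : F0 C) := by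
  refine ⟨‖(w : F0 C) - algebraMap C (F0 C) (evInf C w)‖ / ‖evInf C w‖ + 1, fun δ h1 hδ => ?_⟩
  have hwn : 0 < ‖evInf C w‖ := norm_pos_iff.2 hw
  have hδ0 : 0 < ‖(δ : C)‖ := norm_pos_iff.2 δ.ne_zero
  refine U2_of_near (sub2_mem_A2 (δ : C) δ.ne_zero h1 ⟨(w : F0 C), mem_F2_of_A2 w.2⟩ w.2).1 hw ?_
  refine (norm_sub_const_le (δ : C) δ.ne_zero h1 w.2).trans_lt ?_
  rw [inv_mul_lt_iff₀ hδ0]
  have h2 : ‖(w : F0 C) - algebraMap C (F0 C) (evInf C w)‖ / ‖evInf C w‖ < ‖(δ : C)‖ := by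
    linarith
  rwa [div_lt_iff₀ hwn] at h2

/-- an element of `F2` of order `0` at infinity is a unit of `A2` on small discs. -/
theorem U2_sub2_of_order (x : F2 C) (hx : x ≠ 0) (h0 : oinf x = 0) : ∃ R : ℝ,
    ∀ (δ : Cˣ) (h1 : 1 ≤ ‖(δ : C)‖), R ≤ ‖(δ : C)‖ →
      U2 (sub2 (δ : C) δ.ne_zero h1 x : F0 C) := by
  obtain ⟨a, ha, b, hb, hb0, hab⟩ := mem_F2_iff_div.1 x.2
  have ha0 : a ≠ 0 := by
    rintro rfl
    rw [zero_div] at hab
    exact hx (Subtype.ext hab)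
  obtain ⟨e₁, w₁, hw₁, hw₁0⟩ := exists_order a ha ha0
  obtain ⟨e₂, w₂, hw₂, hw₂0⟩ := exists_order b hb hb0
  have hw₁n : (w₁ : F0 C) ≠ 0 := by
    intro h
    apply ha0
    rw [hw₁, h, mul_zero]
  have hw₂n : (w₂ : F0 C) ≠ 0 := by
    intro h
    apply hb0
    rw [hw₂, h, mul_zero]
  have ht := tt_ne0 (C := C)
  have e1 : x * ⟨(w₂ : F0 C), mem_F2_of_A2 w₂.2⟩ * P025H210.t2 ^ e₁ =
      ⟨(w₁ : F0 C), mem_F2_of_A2 w₁.2⟩ * P025H210.t2 ^ e₂ := by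
    ext
    change (x : F0 C) * (w₂ : F0 C) * (tt C) ^ e₁ = (w₁ : F0 C) * (tt C) ^ e₂
    rw [hab, hw₁, hw₂]
    have := pow_ne_zero e₁ ht
    have := pow_ne_zero e₂ ht
    rw [inv_pow, inv_pow]
    field_simp
  have hW₁ : (⟨(w₁ : F0 C), mem_F2_of_A2 w₁.2⟩ : F2 C) ≠ 0 := fun h =>
    hw₁n (congrArg (fun z : F2 C => (z : F0 C)) h)
  have hW₂ : (⟨(w₂ : F0 C), mem_F2_of_A2 w₂.2⟩ : F2 C) ≠ 0 := fun h =>
    hw₂n (congrArg (fun z : F2 C => (z : F0 C)) h)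
  have e2 : e₁ = e₂ := by
    have h1 := congrArg oinf e1
    have h2 : oinf (⟨(w₁ : F0 C), mem_F2_of_A2 w₁.2⟩ : F2 C) = 0 := order_lamInf_unit w₁ hw₁0
    have h3 : oinf (⟨(w₂ : F0 C), mem_F2_of_A2 w₂.2⟩ : F2 C) = 0 := order_lamInf_unit w₂ hw₂0
    rw [oinf_mul (mul_ne_zero hx hW₂) (pow_ne_zero _ t2_ne0), oinf_mul hx hW₂,
      oinf_mul hW₁ (pow_ne_zero _ t2_ne0), oinf_pow t2_ne0, oinf_pow t2_ne0, oinf_t2, h0, h2,
      h3] at h1
    omega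
  subst e2
  have e3 : x = ⟨(w₁ : F0 C), mem_F2_of_A2 w₁.2⟩ * (⟨(w₂ : F0 C), mem_F2_of_A2 w₂.2⟩)⁻¹ := by
    rw [eq_mul_inv_iff_mul_eq₀ hW₂]
    exact mul_right_cancel₀ (pow_ne_zero _ t2_ne0) e1
  obtain ⟨R₁, hR₁⟩ := U2_sub2 w₁ hw₁0
  obtain ⟨R₂, hR₂⟩ := U2_sub2 w₂ hw₂0
  refine ⟨max R₁ R₂, fun δ h1 hδ => ?_⟩
  rw [e3, map_mul, map_inv₀]
  exact (hR₁ δ h1 ((le_max_left _ _).trans hδ)).mul (hR₂ δ h1 ((le_max_right _ _).trans hδ)).inv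

theorem U2.zpow {x : F0 C} (hx : U2 x) (n : ℤ) : U2 (x ^ n) := by
  rcases n with n | n
  · rw [Int.ofNat_eq_natCast, zpow_natCast]
    exact hx.pow n
  · rw [zpow_negSucc]
    exact (hx.pow _).inv

theorem U2.one : U2 (1 : F0 C) := by
  have := U2.const (C := C) one_ne_zero
  rwa [map_one] at this

theorem U2.prod {ι : Type*} (s : Finset ι) (x : ι → F0 C) (hx : ∀ i ∈ s, U2 (x i)) :
    U2 (∏ i ∈ s, x i) := by
  classical
  induction s using Finset.induction_on with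
  | empty =>
    rw [Finset.prod_empty]
    exact U2.one
  | insert i s hi ih =>
    rw [Finset.prod_insert hi]
    exact (hx i (Finset.mem_insert_self _ _)).mul
      (ih fun j hj => hx j (Finset.mem_insert_of_mem hj))

theorem DivOn.of_U2 {n : ℕ} {x : F0 C} (hx : U2 x) : DivOn n x :=
  ⟨1, (F2 C).one_mem, one_ne_zero, x, hx, by rw [one_pow, one_mul]⟩

/-- a function without zero or pole at `P` is a unit on all small discs around `P`. -/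
theorem exists_U2 (D : P025H210.Charts C K) (P : P025H210.Pole C K) (g : K) (hg : g ≠ 0)
    (h0 : ord P.1 g = 0) : ∃ R : ℝ, ∀ γ : Cˣ, R ≤ ‖(γ : C)‖ →
      D.r0 ≤ ‖(γ : C)‖ ^ P.N ∧ U2 (D.ψ P γ g : F0 C) := by
  obtain ⟨γ₁, hγ₁, hγ₁1⟩ := exists_norm_ge (C := C) D.r0
  have hr1 : D.r0 ≤ ‖(γ₁ : C)‖ ^ P.N := by
    refine hγ₁.trans ?_
    calc ‖(γ₁ : C)‖ = ‖(γ₁ : C)‖ ^ 1 := (pow_one _).symm
      _ ≤ ‖(γ₁ : C)‖ ^ P.N := pow_le_pow_right₀ hγ₁1.le P.N_pos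
  have hx0 : D.ψ P γ₁ g ≠ 0 := (_root_.map_ne_zero (D.ψ P γ₁)).2 hg
  obtain ⟨R, hR⟩ := U2_sub2_of_order (D.ψ P γ₁ g) hx0 (by
    rw [oinf, D.order_eq P γ₁ hr1 g hg, h0])
  refine ⟨max R 1 * ‖(γ₁ : C)‖, fun γ hγ => ?_⟩
  have hn1 : 0 < ‖(γ₁ : C)‖ := norm_pos_iff.2 γ₁.ne_zero
  have h1 : max R 1 ≤ ‖((γ₁⁻¹ * γ : Cˣ) : C)‖ := by
    rw [Units.val_mul, Units.val_inv_eq_inv_val, norm_mul, norm_inv, le_inv_mul_iff₀ hn1, mul_comm]
    exact hγ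
  have h2 : 1 ≤ ‖((γ₁⁻¹ * γ : Cˣ) : C)‖ := (le_max_right _ _).trans h1
  have h3 : γ₁ * (γ₁⁻¹ * γ) = γ := mul_inv_cancel_left _ _
  constructor
  · refine hr1.trans ?_
    refine pow_le_pow_left₀ (norm_nonneg _) ?_ _
    refine le_trans ?_ hγ
    exact le_mul_of_one_le_left hn1.le (le_max_right _ _)
  · have h4 := hR (γ₁⁻¹ * γ) h2 ((le_max_left _ _).trans h1)
    rw [← D.scale P γ₁ (γ₁⁻¹ * γ) hr1 h2 g, h3] at h4
    exact h4

/-- products of powers of finitely many functions without zero or pole at `P`. -/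
theorem exists_U2_prod (D : P025H210.Charts C K) (P : P025H210.Pole C K) {ι : Type*} [Finite ι]
    (g : ι → K) (hg : ∀ i, g i ≠ 0) (h0 : ∀ i, ord P.1 (g i) = 0) :
    ∃ R : ℝ, ∀ γ : Cˣ, R ≤ ‖(γ : C)‖ → D.r0 ≤ ‖(γ : C)‖ ^ P.N ∧
      ∀ (s : Finset ι) (k : ι → ℤ), U2 (D.ψ P γ (∏ i ∈ s, g i ^ k i) : F0 C) := by
  classical
  choose R hR using fun i => exists_U2 D P (g i) (hg i) (h0 i)
  obtain ⟨R₀, hR₀⟩ := exists_U2 D P (1 : K) one_ne_zero (by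
    have := P.1
    exact ord_one _)
  obtain ⟨M, hM⟩ := (Set.finite_range R).bddAbove
  refine ⟨max R₀ M, fun γ hγ => ⟨(hR₀ γ ((le_max_left _ _).trans hγ)).1, fun s k => ?_⟩⟩
  have h1 : (D.ψ P γ (∏ i ∈ s, g i ^ k i) : F0 C) = ∏ i ∈ s, (D.ψ P γ (g i) : F0 C) ^ k i := by
    change ((algebraMap (F2 C) (F0 C)).comp (D.ψ P γ : K →+* F2 C)) (∏ i ∈ s, g i ^ k i) = _
    rw [map_prod]
    refine Finset.prod_congr rfl fun i _ => ?_
    rw [map_zpow₀]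
    rfl
  rw [h1]
  refine U2.prod s _ fun i _ => U2.zpow ((hR i γ ?_).2) _
  exact (hM ⟨i, rfl⟩).trans ((le_max_right _ _).trans hγ)

/-- **(S3)** normal form of sequences of products of powers of finitely many functions without
zero or pole at `P`. -/
theorem normal_form_prod {p : ℕ} (hp : p.Prime) (hpC : ‖(p : C)‖ < 1)
    (D : P025H210.Charts C K) (P : P025H210.Pole C K) {ι : Type*} [Finite ι]
    (g : ι → K) (hg : ∀ i, g i ≠ 0) (h0 : ∀ i, ord P.1 (g i) = 0)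
    (f : ℕ → K) (hf : ∀ m, ∃ (s : Finset ι) (k : ι → ℤ), f m = ∏ i ∈ s, g i ^ k i)
    (hsucc : ∀ m, ∃ h : K, f (m + 1) = f m * h ^ p ^ m)
    (Der : Derivation C K K) (θ : K)
    (hθ : P025H587.IsTheta p Der f θ) (hθ0 : θ ≠ 0)
    (s : K) (hs : ord P.1 s = 1) (hDs : Der s ≠ 0)
    (e : ℕ) (hord : ord P.1 θ - ord P.1 (Der s) = (e : ℤ) - 1) :
    ∃ (γ₀ : Cˣ) (R : ℝ) (w : C), w ≠ 0 ∧ 1 ≤ R ∧ D.r0 ≤ ‖(γ₀ : C)‖ ^ P.N ∧
      ∀ δ : Cˣ, R ≤ ‖(δ : C)‖ →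
        ∃ α : F0 C ≃ₐ[C] F0 C, (∀ x, α x ∈ F2 C ↔ x ∈ F2 C) ∧
          ∀ m : ℕ, ∃ g : F0 C, g ∈ F2 C ∧ g ≠ 0 ∧
            α (D.ψ P (γ₀ * δ) (f m) : F0 C) =
              (1 + algebraMap C (F0 C) (w * (δ : C)⁻¹ ^ e) * (tt C)⁻¹ ^ e) * g ^ p ^ m := by
  obtain ⟨R, hR⟩ := exists_U2_prod D P g hg h0
  refine local_normal_form_core hp hpC D P f (fun m => ?_) hsucc
    ⟨(max R 1) ^ P.N, fun γ hγ m => ?_⟩ Der θ hθ hθ0 s hs hDs e hord
  · obtain ⟨s, k, hk⟩ := hf m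
    rw [hk]
    exact Finset.prod_ne_zero_iff.2 fun i _ => zpow_ne_zero _ (hg i)
  · obtain ⟨s, k, hk⟩ := hf m
    have h1 : R ≤ ‖(γ : C)‖ := (le_max_left R 1).trans
      (le_of_pow_le_pow_left₀ P.N_pos.ne' (norm_nonneg _) hγ)
    rw [hk]
    exact DivOn.of_U2 ((hR γ h1).2 s k)

end

end P025H908
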