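import Vale.Agent.P025.R2.H621.D0
import Vale.Agent.P025.R2.H746.Kap

/-!
# P025 : edges of the tree of `K` and norms over the Gauss norm (helper908)

`K` finite over `C(t)`.  `nvPt e : NV C K` : the norm of `K` at the point `e` of `F0 ⊗ K`.

* (B1) `nvPt_overG`, `nvPt_overGauss`
* (B2) `exists_near` : `K` is dense in the residue field at `e`
* (B3) `ptOf`, `nvPt_ptOf`, `ptOf_nvPt`, `ptEquiv`
* (B4) `finrank_red_le`, `sum_finrank_res`, `finrank_res_eq` , `exists_residue`
-/

open Polynomial TensorProduct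

universe u

set_option linter.unusedSectionVars false
set_option linter.style.haveILetI false

namespace P025H908

open P025H373 P025H544 P025H746 P025H621

noncomputable section

variable {C K : Type u} [NontriviallyNormedField C] [IsUltrametricDist C] [CompleteSpace C]
  [IsAlgClosed C] [CharZero C] [Field K] [Algebra C K] [Algebra (RatFunc C) K]
  [IsScalarTower C (RatFunc C) K] [FiniteDimensional (RatFunc C) K]

local instance instNNF0 : NontriviallyNormedField (F0 C) := nnF0 C

/-! ## (B1) -/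

/-- the spectral norm on the residue field at `e` -/
def snR (e : Pt (RatFunc C) (F0 C) K) (z : Res (RatFunc C) (F0 C) K e) : ℝ :=
  letI := fieldRes e
  haveI := finite_Res e
  sn (C := C) z

/-- the norm of `K` at the point `e` -/
def nvPt (e : Pt (RatFunc C) (F0 C) K) : NV C K :=
  letI := fieldRes e
  haveI := finite_Res e
  nvOf (toRes e) (toRes_algebraMap e)

theorem nvPt_apply (e : Pt (RatFunc C) (F0 C) K) (x : K) : nvPt e x = snR e (toRes e x) := rfl

theorem nvPt_overG (e : Pt (RatFunc C) (F0 C) K) :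
    (nvPt e).OverG (algebraMap (RatFunc C) K RatFunc.X) := by
  letI := fieldRes e
  haveI := finite_Res e
  exact nvOf_overG (toRes e) (toRes_algebraMap e)

theorem nvPt_overGauss (e : Pt (RatFunc C) (F0 C) K) : (nvPt e).OverGauss :=
  (overGauss_iff _).2 (nvPt_overG e)

section snR

variable (e : Pt (RatFunc C) (F0 C) K)

theorem snR_nonneg (z : Res (RatFunc C) (F0 C) K e) : 0 ≤ snR e z := by
  letI := fieldRes e
  haveI := finite_Res e
  exact spectralNorm_nonneg (K := F0 C) z

theorem snR_mul (x y : Res (RatFunc C) (F0 C) K e) : snR e (x * y) = snR e x * snR e y := by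
  letI := fieldRes e
  haveI := finite_Res e
  have h := map_mul (spectralMulAlgNorm (F0 C) (Res (RatFunc C) (F0 C) K e)) x y
  exact h

theorem snR_add_le (x y : Res (RatFunc C) (F0 C) K e) :
    snR e (x + y) ≤ max (snR e x) (snR e y) := by
  letI := fieldRes e
  haveI := finite_Res e
  exact sn_na x y

theorem snR_alg (c : F0 C) : snR e (algebraMap (F0 C) _ c) = ‖c‖ := by
  letI := fieldRes e
  haveI := finite_Res e
  exact sn_alg c

theorem snR_eq_zero {x : Res (RatFunc C) (F0 C) K e} : snR e x = 0 ↔ x = 0 := by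
  letI := fieldRes e
  haveI := finite_Res e
  exact sn_eq_zero

theorem snR_neg (x : Res (RatFunc C) (F0 C) K e) : snR e (-x) = snR e x := by
  have h1 : snR e (-1 : Res (RatFunc C) (F0 C) K e) = 1 := by
    have := snR_alg e (-1)
    simpa using this
  rw [← neg_one_mul, snR_mul, h1, one_mul]

theorem snR_sub_le (x y : Res (RatFunc C) (F0 C) K e) :
    snR e (x - y) ≤ max (snR e x) (snR e y) := by
  rw [sub_eq_add_neg, ← snR_neg e y]
  exact snR_add_le e x (-y)

end snR

/-! ## The map to the completion -/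

section Psi

variable {w : NV C K} (hw : w.OverG (algebraMap (RatFunc C) K RatFunc.X))

/-- `F0 C ⊗ K →` completion of `K` at `w`. -/
def Psi : F0 C ⊗[RatFunc C] K →+* w.av.Completion :=
  letI : Algebra (RatFunc C) w.av.Completion :=
    ((iK w).comp (algebraMap (RatFunc C) K)).toAlgebra
  let f : F0 C →ₐ[RatFunc C] w.av.Completion := { psi hw with commutes' := psi_algebraMap hw }
  let g : K →ₐ[RatFunc C] w.av.Completion := { iK w with commutes' := fun _ => rfl }
  (Algebra.TensorProduct.productMap f g).toRingHom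

theorem Psi_tmul (a : F0 C) (x : K) : Psi hw (a ⊗ₜ x) = psi hw a * iK w x := by
  letI : Algebra (RatFunc C) w.av.Completion :=
    ((iK w).comp (algebraMap (RatFunc C) K)).toAlgebra
  exact Algebra.TensorProduct.productMap_apply_tmul _ _ a x

theorem norm_psi (a : F0 C) : ‖psi hw a‖ = ‖a‖ := by
  refine denseRange_algebraMap.induction_on (p := fun a : F0 C => ‖psi hw a‖ = ‖a‖) a ?_ ?_
  · exact isClosed_eq (UniformSpace.Completion.continuous_extension.norm) continuous_norm
  · intro r
    rw [psi_algebraMap, norm_iK, over_ratFunc hw, P025H373.norm_algebraMap]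

/-- simultaneous approximation of `z ∈ F0 ⊗ K` by elements of `K`. -/
theorem exists_near_aux (e : Pt (RatFunc C) (F0 C) K) (z : F0 C ⊗[RatFunc C] K) :
    ∀ ε : ℝ, 0 < ε → ∃ x : K, snR e (Ideal.Quotient.mk e.asIdeal (z - 1 ⊗ₜ x)) < ε ∧
      ‖Psi hw (z - 1 ⊗ₜ x)‖ < ε := by
  induction z with
  | zero =>
    intro ε hε
    refine ⟨0, ?_, ?_⟩
    · rw [tmul_zero, sub_zero, map_zero, (snR_eq_zero e).2 rfl]
      exact hε
    · rw [tmul_zero, sub_zero, map_zero, norm_zero]
      exact hε
  | add a b ha hb =>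
    intro ε hε
    obtain ⟨x, hx1, hx2⟩ := ha ε hε
    obtain ⟨y, hy1, hy2⟩ := hb ε hε
    have e1 : a + b - (1 : F0 C) ⊗ₜ[RatFunc C] (x + y) = (a - 1 ⊗ₜ x) + (b - 1 ⊗ₜ y) := by
      rw [tmul_add]; ring
    refine ⟨x + y, ?_, ?_⟩
    · rw [e1, map_add]
      exact (snR_add_le e _ _).trans_lt (max_lt hx1 hy1)
    · rw [e1, map_add]
      exact (IsUltrametricDist.norm_add_le_max _ _).trans_lt (max_lt hx2 hy2)
  | tmul a l =>
    intro ε hε
    set M : ℝ := snR e (toRes e l) + w l + 1 with hM
    have hM0 : 0 < M := by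
      have := snR_nonneg e (toRes e l)
      have := w.av.nonneg l
      linarith
    obtain ⟨r, hr⟩ := denseRange_algebraMap.exists_dist_lt a (ε := ε / M) (by positivity)
    rw [dist_eq_norm] at hr
    have hr' : ‖a - algebraMap (RatFunc C) (F0 C) r‖ * M < ε := (lt_div_iff₀ hM0).1 hr
    have e1 : a ⊗ₜ[RatFunc C] l - (1 : F0 C) ⊗ₜ[RatFunc C] (r • l) =
        (a - algebraMap (RatFunc C) (F0 C) r) ⊗ₜ l := by
      rw [sub_tmul, Algebra.algebraMap_eq_smul_one, smul_tmul]
    refine ⟨r • l, ?_, ?_⟩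
    · have e2 : Ideal.Quotient.mk e.asIdeal ((a - algebraMap (RatFunc C) (F0 C) r) ⊗ₜ l) =
          algebraMap (F0 C) (Res (RatFunc C) (F0 C) K e) (a - algebraMap (RatFunc C) (F0 C) r) *
            toRes e l := by
        rw [toRes_apply]
        change _ = Ideal.Quotient.mk e.asIdeal
          ((a - algebraMap (RatFunc C) (F0 C) r) ⊗ₜ (1 : K)) * _
        rw [← map_mul, Algebra.TensorProduct.tmul_mul_tmul, one_mul, mul_one]
      rw [e1, e2, snR_mul, snR_alg]
      refine lt_of_le_of_lt (mul_le_mul_of_nonneg_left ?_ (norm_nonneg _)) hr'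
      have := w.av.nonneg l
      linarith
    · rw [e1, Psi_tmul, norm_mul, norm_psi, norm_iK]
      refine lt_of_le_of_lt (mul_le_mul_of_nonneg_left ?_ (norm_nonneg _)) hr'
      have := snR_nonneg e (toRes e l)
      linarith

end Psi

/-! ## (B2) -/

theorem exists_near (e : Pt (RatFunc C) (F0 C) K) (z : Res (RatFunc C) (F0 C) K e) {ε : ℝ}
    (hε : 0 < ε) : ∃ x : K, snR e (z - toRes e x) < ε := by
  obtain ⟨ζ, rfl⟩ := Ideal.Quotient.mk_surjective z
  obtain ⟨x, hx, -⟩ := exists_near_aux (nvPt_overG e) e ζ ε hε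
  refine ⟨x, ?_⟩
  rw [toRes_apply, ← map_sub]
  exact hx

/-- elements of norm `≤ 1` have a residue in `K` -/
theorem exists_residue (e : Pt (RatFunc C) (F0 C) K) (z : Res (RatFunc C) (F0 C) K e)
    (hz : snR e z ≤ 1) : ∃ x : K, nvPt e x ≤ 1 ∧ snR e (z - toRes e x) < 1 := by
  obtain ⟨x, hx⟩ := exists_near e z one_pos
  refine ⟨x, ?_, hx⟩
  have e1 : toRes e x = z - (z - toRes e x) := by ring
  rw [nvPt_apply, e1]
  exact (snR_sub_le e _ _).trans (max_le hz hx.le)

/-! ## (B3) -/

section B3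

variable {w : NV C K} (hw : w.OverG (algebraMap (RatFunc C) K RatFunc.X))

/-- the point of `w` -/
def ptOf : Pt (RatFunc C) (F0 C) K := PrimeSpectrum.comap (Psi hw) ⟨⊥, Ideal.isPrime_bot⟩

theorem mem_ptOf (z : F0 C ⊗[RatFunc C] K) : z ∈ (ptOf hw).asIdeal ↔ Psi hw z = 0 := by
  change Psi hw z ∈ (⊥ : Ideal _) ↔ _
  rw [Ideal.mem_bot]

/-- if `w` and `e` induce the same norm on `K`, the norms on `F0 ⊗ K` agree -/
theorem norm_Psi_of_eq {e : Pt (RatFunc C) (F0 C) K} (h : ∀ x, nvPt e x = w x)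
    (z : F0 C ⊗[RatFunc C] K) : ‖Psi hw z‖ = snR e (Ideal.Quotient.mk e.asIdeal z) := by
  have key : ∀ ε : ℝ, 0 < ε → |‖Psi hw z‖ - snR e (Ideal.Quotient.mk e.asIdeal z)| ≤ 2 * ε := by
    intro ε hε
    obtain ⟨x, hx1, hx2⟩ := exists_near_aux hw e z ε hε
    have h1 : |‖Psi hw z‖ - w x| ≤ ε := by
      have e1 : Psi hw (z - 1 ⊗ₜ x) = Psi hw z - iK w x := by
        rw [map_sub, Psi_tmul, map_one, one_mul]
      rw [← norm_iK w x]
      refine (abs_norm_sub_norm_le _ _).trans ?_
      rw [← e1]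
      exact hx2.le
    have h2 : |snR e (Ideal.Quotient.mk e.asIdeal z) - w x| ≤ ε := by
      rw [← h x, nvPt_apply]
      rw [map_sub, ← toRes_apply] at hx1
      set a := Ideal.Quotient.mk e.asIdeal z
      set b := toRes e x
      have h3 : snR e a ≤ snR e b + snR e (a - b) := by
        have e1 : a = b + (a - b) := by ring
        conv_lhs => rw [e1]
        exact (snR_add_le e _ _).trans (max_le_add_of_nonneg (snR_nonneg e _) (snR_nonneg e _))
      have h4 : snR e b ≤ snR e a + snR e (a - b) := by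
        have e1 : b = a - (a - b) := by ring
        conv_lhs => rw [e1]
        exact (snR_sub_le e _ _).trans (max_le_add_of_nonneg (snR_nonneg e _) (snR_nonneg e _))
      rw [abs_le]
      constructor <;> linarith
    rw [abs_le] at *
    constructor <;> linarith [h1.1, h1.2, h2.1, h2.2]
  by_contra hne
  have h0 : 0 < |‖Psi hw z‖ - snR e (Ideal.Quotient.mk e.asIdeal z)| :=
    abs_pos.2 (sub_ne_zero.2 hne)
  have := key (|‖Psi hw z‖ - snR e (Ideal.Quotient.mk e.asIdeal z)| / 4) (by positivity)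
  linarith

theorem eq_ptOf {e : Pt (RatFunc C) (F0 C) K} (h : ∀ x, nvPt e x = w x) : e = ptOf hw := by
  ext z
  rw [mem_ptOf, ← norm_eq_zero, norm_Psi_of_eq hw h, snR_eq_zero, Ideal.Quotient.eq_zero_iff_mem]

/-- residue field at `ptOf` embeds in the completion -/
def resPsi : Res (RatFunc C) (F0 C) K (ptOf hw) →+* w.av.Completion :=
  Ideal.Quotient.lift (ptOf hw).asIdeal (Psi hw) fun z hz => (mem_ptOf hw z).1 hz

theorem norm_resPsi (z : Res (RatFunc C) (F0 C) K (ptOf hw)) : ‖resPsi hw z‖ = snR (ptOf hw) z := by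
  letI := fieldRes (ptOf hw)
  haveI := finite_Res (ptOf hw)
  let f : AbsoluteValue (Res (RatFunc C) (F0 C) K (ptOf hw)) ℝ :=
    { toFun := fun z => ‖resPsi hw z‖
      map_mul' := fun x y => by rw [map_mul, norm_mul]
      nonneg' := fun x => norm_nonneg _
      eq_zero' := fun x => by
        rw [norm_eq_zero]
        constructor
        · intro h
          obtain ⟨ζ, rfl⟩ := Ideal.Quotient.mk_surjective x
          rw [Ideal.Quotient.eq_zero_iff_mem, mem_ptOf]
          exact h
        · rintro rfl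
          exact map_zero _
      add_le' := fun x y => by
        rw [map_add]
        exact norm_add_le _ _ }
  have h1 : ∀ a : F0 C, f (algebraMap (F0 C) (Res (RatFunc C) (F0 C) K (ptOf hw)) a) = ‖a‖ := by
    intro a
    change ‖Psi hw (a ⊗ₜ 1)‖ = ‖a‖
    rw [Psi_tmul, map_one, mul_one, norm_psi]
  exact spectralNorm_unique_field_norm_ext h1 z

theorem nvPt_ptOf : nvPt (ptOf hw) = w := by
  apply NV.ext
  apply AbsoluteValue.ext
  intro x
  change snR (ptOf hw) (toRes (ptOf hw) x) = w x
  rw [← norm_resPsi, ← norm_iK w x]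
  change ‖Psi hw (1 ⊗ₜ x)‖ = _
  rw [Psi_tmul, map_one, one_mul]

theorem ptOf_nvPt (e : Pt (RatFunc C) (F0 C) K) : ptOf (nvPt_overG e) = e :=
  (eq_ptOf (nvPt_overG e) fun _ => rfl).symm

theorem nvPt_injective : Function.Injective (nvPt : Pt (RatFunc C) (F0 C) K → NV C K) := by
  intro e e' h
  rw [eq_ptOf (nvPt_overG e') (e := e) fun x => by rw [h], ptOf_nvPt]

variable (C K) in
/-- **(B3)** edges and norms over the Gauss norm -/
def ptEquiv : Pt (RatFunc C) (F0 C) K ≃
    {w : NV C K // w.OverG (algebraMap (RatFunc C) K RatFunc.X)} where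
  toFun e := ⟨nvPt e, nvPt_overG e⟩
  invFun w := ptOf w.2
  left_inv e := ptOf_nvPt e
  right_inv w := Subtype.ext (nvPt_ptOf w.2)

end B3

end

end P025H908
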