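import Vale.Agent.P025.R2.H908.PtNV
import Vale.Agent.P025.R2.H544.Points

/-!
# P025 : degrees of the edges (helper908), (B4)
-/

open Polynomial TensorProduct IntermediateField

universe u

set_option linter.unusedSectionVars false
set_option linter.style.haveILetI false

namespace P025H908

open P025H373 P025H544 P025H746 P025H621

noncomputable section

variable {C K : Type u} [NontriviallyNormedField C] [IsUltrametricDist C] [CompleteSpace C]
  [IsAlgClosed C] [CharZero C] [Field K] [Algebra C K] [Algebra (RatFunc C) K]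
  [IsScalarTower C (RatFunc C) K] [FiniteDimensional (RatFunc C) K]

local instance instNNF0' : NontriviallyNormedField (F0 C) := nnF0 C

/-- residue degree of `w` over the Gauss norm of `T` -/
abbrev fdeg (w : NV C K) (T : K) : ℕ := Module.finrank (kC C)⟮w.red T⟯ (kap w)

section ortho

variable {w : NV C K} {T : K}

theorem exists_norm_eq_gp (P : C[X]) : ∃ c : C, ‖c‖ = gp P := by
  obtain ⟨i, hi⟩ := exists_coeff_eq P
  exact ⟨_, hi⟩

/-- independent residues: polynomial coefficients -/
theorem ortho_poly {ι : Type*} [Fintype ι] (hw : w.OverG T) (x : ι → K) (hx : ∀ i, w (x i) ≤ 1)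
    (hli : LinearIndependent (kC C)⟮w.red T⟯ fun i => w.red (x i)) (P : ι → C[X]) (j : ι) :
    gp (P j) ≤ w (∑ i, aeval T (P i) * x i) := by
  classical
  by_contra hcon
  push Not at hcon
  obtain ⟨j₀, -, hj₀⟩ := Finset.exists_max_image Finset.univ (fun i => gp (P i)) ⟨j, Finset.mem_univ j⟩
  have hM : ∀ i, gp (P i) ≤ gp (P j₀) := fun i => hj₀ i (Finset.mem_univ i)
  have hlt : w (∑ i, aeval T (P i) * x i) < gp (P j₀) := hcon.trans_le (hM j)
  have hpos : 0 < gp (P j₀) := (w.av.nonneg _).trans_lt hlt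
  obtain ⟨c, hc⟩ := exists_norm_eq_gp (P j₀)
  have hc0 : c ≠ 0 := by
    rw [← norm_pos_iff, hc]
    exact hpos
  set P' : ι → C[X] := fun i => Polynomial.C c⁻¹ * P i with hP'
  have hg : ∀ i, gp (P' i) = gp (P i) / gp (P j₀) := by
    intro i
    rw [hP', gp_mul, gp_C, norm_inv, hc, inv_mul_eq_div]
  have hg1 : ∀ i, gp (P' i) ≤ 1 := fun i => by
    rw [hg, div_le_one hpos]
    exact hM i
  have hg0 : gp (P' j₀) = 1 := by rw [hg, div_self hpos.ne']
  have hsum : w (∑ i, aeval T (P' i) * x i) < 1 := by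
    have e1 : ∑ i, aeval T (P' i) * x i = algebraMap C K c⁻¹ * ∑ i, aeval T (P i) * x i := by
      rw [Finset.mul_sum]
      refine Finset.sum_congr rfl fun i _ => ?_
      rw [hP', map_mul, aeval_C, mul_assoc]
    rw [e1, map_mul, w.ext', norm_inv, hc, inv_mul_lt_iff₀ hpos, mul_one]
    exact hlt
  have hT1 := hw.apply_T.le
  have hle : ∀ i, w (aeval T (P' i) * x i) ≤ 1 := fun i =>
    NV.mul_le_one (NV.aeval_le hT1 (hg1 i)) (hx i)
  have h0 : ∑ i, aeval (w.red T) (pred (P' i)) * w.red (x i) = 0 := by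
    rw [← NV.red_of_lt hsum, NV.red_sum fun i _ => hle i]
    refine Finset.sum_congr rfl fun i _ => ?_
    rw [NV.red_mul (NV.aeval_le hT1 (hg1 i)) (hx i), NV.red_aeval hT1 (hg1 i)]
  have h1 := Fintype.linearIndependent_iff.1 hli
    (fun i => aeval (AdjoinSimple.gen (kC C) (w.red T)) (pred (P' i))) (by
      rw [← h0]
      refine Finset.sum_congr rfl fun i _ => ?_
      rw [Algebra.smul_def]
      congr 1
      rw [← aeval_algebraMap_apply]
      rfl) j₀
  have h2 : aeval (w.red T) (pred (P' j₀)) = 0 := by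
    have := congrArg (algebraMap (kC C)⟮w.red T⟯ (kap w)) h1
    rw [← aeval_algebraMap_apply, map_zero] at this
    exact this
  have h3 : pred (P' j₀) = 0 := (transcendental_iff.1 hw.transc_red) _ h2
  have h4 := (pred_eq_zero (hg1 j₀)).1 h3
  rw [hg0] at h4
  exact lt_irrefl _ h4

/-- independent residues: rational coefficients -/
theorem ortho_rat {ι : Type*} [Fintype ι] (hw : w.OverG (algebraMap (RatFunc C) K RatFunc.X))
    (x : ι → K) (hx : ∀ i, w (x i) ≤ 1)
    (hli : LinearIndependent (kC C)⟮w.red (algebraMap (RatFunc C) K RatFunc.X)⟯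
      fun i => w.red (x i)) (r : ι → RatFunc C) (j : ι) :
    gauss C (r j) ≤ w (∑ i, algebraMap (RatFunc C) K (r i) * x i) := by
  classical
  obtain ⟨Q, hQ⟩ := IsLocalization.exist_integer_multiples (nonZeroDivisors C[X])
    (Finset.univ : Finset ι) r
  have hQ0 : (Q : C[X]) ≠ 0 := nonZeroDivisors.ne_zero Q.2
  choose! P hP using hQ
  have hP' : ∀ i, algebraMap C[X] (RatFunc C) (P i) = algebraMap C[X] (RatFunc C) Q * r i := by
    intro i
    have := hP i (Finset.mem_univ i)
    rw [this, Algebra.smul_def]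
  have hgQ : 0 < gp (Q : C[X]) := lt_of_le_of_ne (gp_nonneg _) fun h => hQ0 (gp_eq_zero.1 h.symm)
  have h1 := ortho_poly hw x hx hli P j
  have h2 : gp (P j) = gp (Q : C[X]) * gauss C (r j) := by
    rw [← gauss_poly, hP', map_mul, gauss_poly]
  have h3 : ∑ i, aeval (algebraMap (RatFunc C) K RatFunc.X) (P i) * x i =
      aeval (algebraMap (RatFunc C) K RatFunc.X) (Q : C[X]) *
        ∑ i, algebraMap (RatFunc C) K (r i) * x i := by
    rw [Finset.mul_sum]
    refine Finset.sum_congr rfl fun i _ => ?_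
    rw [← P025H746.algebraMap_poly, hP', map_mul, P025H746.algebraMap_poly, mul_assoc]
  rw [h2, h3, map_mul, hw] at h1
  exact le_of_mul_le_mul_left h1 hgQ

/-- independent residues: coefficients in `F0` -/
theorem ortho_F0 {ι : Type*} [Fintype ι] (e : Pt (RatFunc C) (F0 C) K)
    (x : ι → K) (hx : ∀ i, nvPt e (x i) ≤ 1)
    (hli : LinearIndependent (kC C)⟮(nvPt e).red (algebraMap (RatFunc C) K RatFunc.X)⟯
      fun i => (nvPt e).red (x i)) (a : ι → F0 C) (j : ι) :
    ‖a j‖ ≤ snR e (∑ i, algebraMap (F0 C) _ (a i) * toRes e (x i)) := by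
  classical
  by_contra hcon
  push Not at hcon
  obtain ⟨j₀, -, hj₀⟩ := Finset.exists_max_image Finset.univ (fun i => ‖a i‖) ⟨j, Finset.mem_univ j⟩
  have hlt : snR e (∑ i, algebraMap (F0 C) _ (a i) * toRes e (x i)) < ‖a j₀‖ :=
    hcon.trans_le (hj₀ j (Finset.mem_univ j))
  have hpos : 0 < ‖a j₀‖ := (snR_nonneg e _).trans_lt hlt
  choose r hr using fun i => denseRange_algebraMap.exists_dist_lt (a i) hpos
  have hr' : ∀ i, ‖a i - algebraMap (RatFunc C) (F0 C) (r i)‖ < ‖a j₀‖ := fun i => by
    rw [← dist_eq_norm]; exact hr i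
  have h1 := ortho_rat (nvPt_overG e) x hx hli r j₀
  have h2 : gauss C (r j₀) = ‖a j₀‖ := by
    rw [← P025H373.norm_algebraMap]
    have e1 : algebraMap (RatFunc C) (F0 C) (r j₀) =
        a j₀ + -(a j₀ - algebraMap (RatFunc C) (F0 C) (r j₀)) := by ring
    have h3 := hr' j₀
    rw [← norm_neg] at h3
    rw [e1, IsUltrametricDist.norm_add_eq_max_of_norm_ne_norm h3.ne', max_eq_left h3.le]
  have h4 : nvPt e (∑ i, algebraMap (RatFunc C) K (r i) * x i) < ‖a j₀‖ := by
    rw [nvPt_apply]
    have e1 : toRes e (∑ i, algebraMap (RatFunc C) K (r i) * x i) =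
        (∑ i, algebraMap (F0 C) _ (a i) * toRes e (x i)) -
        ∑ i, algebraMap (F0 C) _ (a i - algebraMap (RatFunc C) (F0 C) (r i)) * toRes e (x i) := by
      rw [map_sum, ← Finset.sum_sub_distrib]
      refine Finset.sum_congr rfl fun i _ => ?_
      rw [map_mul, toRes_algebraMap, map_sub]
      ring
    rw [e1]
    refine (snR_sub_le e _ _).trans_lt (max_lt hlt ?_)
    have key : ∀ s : Finset ι, snR e (∑ i ∈ s, algebraMap (F0 C) _
        (a i - algebraMap (RatFunc C) (F0 C) (r i)) * toRes e (x i)) < ‖a j₀‖ := by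
      intro s
      induction s using Finset.induction_on with
      | empty =>
        rw [Finset.sum_empty, (snR_eq_zero e).2 rfl]
        exact hpos
      | insert i s hi ih =>
        rw [Finset.sum_insert hi]
        refine (snR_add_le e _ _).trans_lt (max_lt ?_ ih)
        rw [snR_mul, snR_alg]
        exact lt_of_le_of_lt (mul_le_of_le_one_right (norm_nonneg _) (hx i)) (hr' i)
    exact key Finset.univ
  rw [h2] at h1
  exact absurd h1 (not_le.2 h4)

theorem ortho_F0_li {ι : Type*} [Fintype ι] (e : Pt (RatFunc C) (F0 C) K)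
    (x : ι → K) (hx : ∀ i, nvPt e (x i) ≤ 1)
    (hli : LinearIndependent (kC C)⟮(nvPt e).red (algebraMap (RatFunc C) K RatFunc.X)⟯
      fun i => (nvPt e).red (x i)) :
    LinearIndependent (F0 C) fun i => toRes e (x i) := by
  rw [Fintype.linearIndependent_iff]
  intro a ha j
  have h1 := ortho_F0 e x hx hli a j
  have h2 : ∑ i, algebraMap (F0 C) (Res (RatFunc C) (F0 C) K e) (a i) * toRes e (x i) = 0 := by
    rw [← ha]
    refine Finset.sum_congr rfl fun i _ => ?_
    rw [Algebra.smul_def]
  rw [h2, (snR_eq_zero e).2 rfl] at h1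
  exact norm_le_zero_iff.1 h1

end ortho

/-! ## Sum of the degrees of the points -/

theorem sum_finrank_pt {F A L : Type*} [Field F] [Field A] [Field L] [Algebra F A] [Algebra F L]
    [FiniteDimensional F L] [Algebra.IsSeparable F L] [Fintype (Pt F A L)] :
    ∑ e : Pt F A L, Module.finrank A (Res F A L e) = Module.finrank F L := by
  classical
  haveI hr : IsReduced (A ⊗[F] L) := isReduced_tensor_fin
  haveI ha : IsArtinianRing (A ⊗[F] L) := isArtinian_tensor
  let E := IsArtinianRing.primeSpectrumEquivMaximalSpectrum (R := A ⊗[F] L)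
  letI : Fintype (MaximalSpectrum (A ⊗[F] L)) := Fintype.ofEquiv _ E
  haveI hf : ∀ I : MaximalSpectrum (A ⊗[F] L), Module.Finite A ((A ⊗[F] L) ⧸ I.asIdeal) :=
    fun I => Module.Finite.of_surjective (Ideal.Quotient.mkₐ A I.asIdeal).toLinearMap
      Ideal.Quotient.mk_surjective
  have h1 := ((IsArtinianRing.equivPi (A ⊗[F] L)).restrictScalars A).toLinearEquiv.finrank_eq
  rw [Module.finrank_pi_fintype, Module.finrank_baseChange] at h1
  rw [h1]
  exact Fintype.sum_equiv E _ _ (fun e => rfl)

/-! ## (B4) -/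

section B4

/-- residue degree at most local degree -/
theorem fdeg_le (e : Pt (RatFunc C) (F0 C) K) :
    fdeg (nvPt e) (algebraMap (RatFunc C) K RatFunc.X) ≤
      Module.finrank (F0 C) (Res (RatFunc C) (F0 C) K e) := by
  classical
  haveI := finite_Res e
  haveI : FiniteDimensional C⟮algebraMap (RatFunc C) K RatFunc.X⟯ K :=
    (finite_rat rfl).1 inferInstance
  haveI := (nvPt_overG e).finite
  set b := Module.finBasis (kC C)⟮(nvPt e).red (algebraMap (RatFunc C) K RatFunc.X)⟯ (kap (nvPt e))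
  choose x hx1 hx2 using fun i => NV.red_surj (b i)
  have hli : LinearIndependent (kC C)⟮(nvPt e).red (algebraMap (RatFunc C) K RatFunc.X)⟯
      fun i => (nvPt e).red (x i) := by
    have h1 : (fun i => (nvPt e).red (x i)) = b := funext hx2
    rw [h1]
    exact b.linearIndependent
  have := (ortho_F0_li e x hx1 hli).fintype_card_le_finrank
  rwa [Fintype.card_fin] at this

/-- **(B4)**: local degree = residue degree, as soon as `∑ f_w` is the degree -/
theorem finrank_res_eq {T : K} (hT : T = algebraMap (RatFunc C) K RatFunc.X)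
    [Fintype {w : NV C K // w.OverG T}]
    (hsum : Module.finrank C⟮T⟯ K ≤ ∑ w : {w : NV C K // w.OverG T}, fdeg w.1 T)
    (e : Pt (RatFunc C) (F0 C) K) :
    Module.finrank (F0 C) (Res (RatFunc C) (F0 C) K e) = fdeg (nvPt e) T := by
  classical
  subst hT
  letI : Fintype (Pt (RatFunc C) (F0 C) K) := Fintype.ofEquiv _ (ptEquiv C K).symm
  have h1 : ∑ e : Pt (RatFunc C) (F0 C) K, Module.finrank (F0 C) (Res (RatFunc C) (F0 C) K e) =
      Module.finrank (RatFunc C) K := sum_finrank_pt
  have h2 : ∑ e : Pt (RatFunc C) (F0 C) K,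
      fdeg (nvPt e) (algebraMap (RatFunc C) K RatFunc.X) =
      ∑ w : {w : NV C K // w.OverG (algebraMap (RatFunc C) K RatFunc.X)},
        fdeg w.1 (algebraMap (RatFunc C) K RatFunc.X) :=
    Fintype.sum_equiv (ptEquiv C K) _ _ (fun e => rfl)
  have h3 : ∑ e : Pt (RatFunc C) (F0 C) K,
      fdeg (nvPt e) (algebraMap (RatFunc C) K RatFunc.X) =
      ∑ e : Pt (RatFunc C) (F0 C) K, Module.finrank (F0 C) (Res (RatFunc C) (F0 C) K e) := by
    refine le_antisymm (Finset.sum_le_sum fun e _ => fdeg_le e) ?_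
    rw [h1, h2, finrank_rat rfl]
    exact hsum
  exact ((Finset.sum_eq_sum_iff_of_le fun e _ => fdeg_le e).1 h3 e (Finset.mem_univ e)).symm

end B4

/-! ## Bases with orthonormal residues -/

section basis

theorem snR_sum_le (e : Pt (RatFunc C) (F0 C) K) {ι : Type*} (s : Finset ι)
    (f : ι → Res (RatFunc C) (F0 C) K e) {r : ℝ} (hr : 0 ≤ r) (h : ∀ i ∈ s, snR e (f i) ≤ r) :
    snR e (∑ i ∈ s, f i) ≤ r := by
  classical
  induction s using Finset.induction_on with
  | empty =>
    rw [Finset.sum_empty, (snR_eq_zero e).2 rfl]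
    exact hr
  | insert i s hi ih =>
    rw [Finset.sum_insert hi]
    exact (snR_add_le e _ _).trans (max_le (h i (Finset.mem_insert_self _ _))
      (ih fun j hj => h j (Finset.mem_insert_of_mem hj)))

/-- a basis of the residue field at `e` formed of elements of `K` with independent residues; the
norm is the maximum of the norms of the coordinates. -/
theorem exists_basis (e : Pt (RatFunc C) (F0 C) K) {T : K}
    (hT : T = algebraMap (RatFunc C) K RatFunc.X)
    (hdeg : Module.finrank (F0 C) (Res (RatFunc C) (F0 C) K e) = fdeg (nvPt e) T)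
    {ι : Type*} [Fintype ι] (b : Module.Basis ι (kC C)⟮(nvPt e).red T⟯ (kap (nvPt e)))
    (x : ι → K) (hx : ∀ i, nvPt e (x i) ≤ 1) (hb : ∀ i, (nvPt e).red (x i) = b i) :
    ∃ B : Module.Basis ι (F0 C) (Res (RatFunc C) (F0 C) K e), (∀ i, B i = toRes e (x i)) ∧
      ∀ (z : Res (RatFunc C) (F0 C) K e) (r : ℝ), 0 ≤ r →
        (snR e z ≤ r ↔ ∀ i, ‖B.repr z i‖ ≤ r) := by
  classical
  subst hT
  haveI := finite_Res e
  have hli : LinearIndependent (kC C)⟮(nvPt e).red (algebraMap (RatFunc C) K RatFunc.X)⟯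
      fun i => (nvPt e).red (x i) := by
    have h1 : (fun i => (nvPt e).red (x i)) = b := funext hb
    rw [h1]
    exact b.linearIndependent
  have hli' := ortho_F0_li e x hx hli
  have hcard : Fintype.card ι = Module.finrank (F0 C) (Res (RatFunc C) (F0 C) K e) := by
    rw [hdeg, fdeg, Module.finrank_eq_card_basis b]
  have hB : ∃ B : Module.Basis ι (F0 C) (Res (RatFunc C) (F0 C) K e),
      ∀ i, B i = toRes e (x i) := by
    refine ⟨basisOfLinearIndependentOfCardEqFinrank' _ hli' hcard, fun i => ?_⟩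
    rw [coe_basisOfLinearIndependentOfCardEqFinrank']
  obtain ⟨B, hB⟩ := hB
  refine ⟨B, hB, fun z r hr => ?_⟩
  have hz : z = ∑ i, algebraMap (F0 C) _ (B.repr z i) * toRes e (x i) := by
    conv_lhs => rw [← B.sum_repr z]
    refine Finset.sum_congr rfl fun i _ => ?_
    rw [Algebra.smul_def, hB]
  constructor
  · intro h i
    refine (ortho_F0 e x hx hli (fun i => B.repr z i) i).trans ?_
    rw [← hz]
    exact h
  · intro h
    rw [hz]
    refine snR_sum_le e _ _ hr fun i _ => ?_
    rw [snR_mul, snR_alg]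
    exact (mul_le_of_le_one_right (norm_nonneg _) (hx i)).trans (h i)

end basis

end

end P025H908
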