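import Vale.Agent.P025.R2.H908.PtNV2
import Vale.Agent.P025.R2.H746.Stab

/-!
# P025 : (B4) over spherically complete `C` (helper908)
-/

open Polynomial TensorProduct IntermediateField

universe u

set_option linter.unusedSectionVars false
set_option linter.style.haveILetI false

namespace P025H908

open P025H373 P025H544 P025H746 P025H621

noncomputable section

variable {C K : Type u} [NontriviallyNormedField C] [IsUltrametricDist C] [CompleteSpace C]
  [IsAlgClosed C] [CharZero C] [Field K] [Algebra C K] [Algebra (RatFunc C) K]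
  [IsScalarTower C (RatFunc C) K] [FiniteDimensional (RatFunc C) K]

local instance instNNF03 : NontriviallyNormedField (F0 C) := nnF0 C

/-- **(B4)** `[K_e : F0] = f_w`, `w = nvPt e`. -/
theorem finrank_res (hC : P025H458.Sph C) (hn : ∀ r : ℝ, 0 ≤ r → ∃ x : C, ‖x‖ = r) {T : K}
    (hT : T = algebraMap (RatFunc C) K RatFunc.X) (e : Pt (RatFunc C) (F0 C) K) :
    Module.finrank (F0 C) (Res (RatFunc C) (F0 C) K e) = fdeg (nvPt e) T := by
  haveI : FiniteDimensional C⟮T⟯ K := (finite_rat hT).1 inferInstance
  refine finrank_res_eq hT ?_ e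
  exact (sum_finrank_eq hC hn (T := T) (hT ▸ transc_X)).ge

end

end P025H908
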