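import Vale.Agent.P025.R2.H210.Spec51
import Vale.Agent.P025.R2.H907.LocSpec
import Vale.Agent.P025.R2.H731.Sides
import Vale.Agent.P025.R2.H469.PlaceDV

/-!
# P025 T2a (helper908): divisibility of orders on the disc
-/

open Polynomial TensorProduct P025H373 P025H544 P025H628 Vale.Agent.P019P P025H907 P025H731

set_option linter.unusedSectionVars false

universe u v

namespace P025H908

noncomputable section

variable {C : Type u} [NontriviallyNormedField C] [IsUltrametricDist C] [CompleteSpace C]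
  [IsAlgClosed C]

/-! ## Rational functions -/

/-- `1 - a / t` -/
def ea (a : C) : F0 C := 1 - algebraMap C (F0 C) a * (tt C)⁻¹

theorem tt_mul_ea (a : C) : tt C * ea a = tt C - algebraMap C (F0 C) a := by
  have ht := tt_ne0 (C := C)
  rw [ea]
  field_simp

theorem ea_ne_zero (a : C) : ea a ≠ 0 := by
  intro h
  have h1 := tt_mul_ea a
  rw [h, mul_zero] at h1
  have h2 := aeval_tt_ne_zero (C := C) (P := X - Polynomial.C a) (X_sub_C_ne_zero a)
  rw [map_sub, aeval_X, aeval_C] at h2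
  exact h2 h1.symm

theorem ea_mem_F2 (a : C) : ea a ∈ F2 C :=
  (F2 C).sub_mem (F2 C).one_mem ((F2 C).mul_mem (mem_F2_of_A2 (const_mem_A2 a))
    ((F2 C).inv_mem tt_mem_F2))

theorem U2_ea {a : C} (ha : ‖a‖ ≤ 1) : U2 (ea a) := by
  have h := monic_unit (C := C) (P := X - Polynomial.C a) (monic_X_sub_C a) (by
    intro b hb
    rw [roots_X_sub_C, Multiset.mem_singleton] at hb
    rw [hb]
    exact ha)
  rw [natDegree_X_sub_C, pow_one, map_sub, aeval_X, aeval_C] at h
  have h1 : ea a = (tt C - algebraMap C (F0 C) a) * (tt C)⁻¹ := by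
    rw [← tt_mul_ea]
    have ht := tt_ne0 (C := C)
    field_simp
  rw [h1]
  exact h

theorem U2_one : U2 (1 : F0 C) := by
  have := U2.const (C := C) one_ne_zero
  rwa [map_one] at this

theorem U2_prod {ι : Type*} (s : Finset ι) (x : ι → F0 C) (hx : ∀ i ∈ s, U2 (x i)) :
    U2 (∏ i ∈ s, x i) := by
  classical
  induction s using Finset.induction_on with
  | empty =>
    rw [Finset.prod_empty]
    exact U2_one
  | insert i s hi ih =>
    rw [Finset.prod_insert hi]
    exact (hx i (Finset.mem_insert_self _ _)).mul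
      (ih fun j hj => hx j (Finset.mem_insert_of_mem hj))

/-- polynomials on `|t| > 1` -/
theorem poly_out {P : C[X]} (hP : P ≠ 0) (S : Finset C) (hS : ∀ a ∈ P.roots, 1 < ‖a‖ → a ∈ S)
    (hS1 : ∀ a ∈ S, 1 < ‖a‖) : ∃ u : F0 C, U2 u ∧
      aeval (tt C) P = (tt C) ^ P.natDegree * u * ∏ a ∈ S, ea a ^ P.rootMultiplicity a := by
  classical
  have h1 : Multiset.card P.roots = P.natDegree :=
    splits_iff_card_roots.1 (IsAlgClosed.splits P)
  have h2 : P = Polynomial.C P.leadingCoeff * (P.roots.map fun a => X - Polynomial.C a).prod :=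
    (C_leadingCoeff_mul_prod_multiset_X_sub_C h1).symm
  have h3 : aeval (tt C) P = algebraMap C (F0 C) P.leadingCoeff *
      (P.roots.map fun a => tt C - algebraMap C (F0 C) a).prod := by
    conv_lhs => rw [h2]
    rw [map_mul, aeval_C, map_multiset_prod, Multiset.map_map]
    congr 2
    refine Multiset.map_congr rfl fun a _ => ?_
    simp
  have h4 : (P.roots.map fun a => tt C - algebraMap C (F0 C) a).prod =
      (tt C) ^ P.natDegree * (P.roots.map fun a => ea a).prod := by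
    rw [← h1, ← Multiset.card_map (fun _ => tt C) P.roots]
    have h5 : (P.roots.map fun a => tt C - algebraMap C (F0 C) a) =
        P.roots.map fun a => tt C * ea a :=
      Multiset.map_congr rfl fun a _ => (tt_mul_ea a).symm
    rw [h5, Multiset.prod_map_mul, Multiset.map_const', Multiset.prod_replicate,
      Multiset.card_replicate]
  have h6 : (P.roots.map fun a => ea a).prod =
      ∏ a ∈ P.roots.toFinset, ea a ^ P.rootMultiplicity a := by
    rw [Finset.prod_multiset_map_count]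
    refine Finset.prod_congr rfl fun a _ => ?_
    rw [count_roots]
  have h7 : ∏ a ∈ P.roots.toFinset, ea a ^ P.rootMultiplicity a =
      (∏ a ∈ P.roots.toFinset with ¬ 1 < ‖a‖, ea a ^ P.rootMultiplicity a) *
        ∏ a ∈ S, ea a ^ P.rootMultiplicity a := by
    rw [← Finset.prod_filter_mul_prod_filter_not P.roots.toFinset (fun a => 1 < ‖a‖), mul_comm]
    congr 1
    refine Finset.prod_subset ?_ ?_
    · intro a ha
      rw [Finset.mem_filter, Multiset.mem_toFinset] at ha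
      exact hS a ha.1 ha.2
    · intro a ha hna
      have h8 : a ∉ P.roots := by
        intro h8
        exact hna (Finset.mem_filter.2 ⟨Multiset.mem_toFinset.2 h8, hS1 a ha⟩)
      rw [← count_roots, Multiset.count_eq_zero_of_notMem h8, pow_zero]
  refine ⟨algebraMap C (F0 C) P.leadingCoeff *
    ∏ a ∈ P.roots.toFinset with ¬ 1 < ‖a‖, ea a ^ P.rootMultiplicity a, ?_, ?_⟩
  · refine (U2.const (leadingCoeff_ne_zero.2 hP)).mul (U2_prod _ _ fun a ha => ?_)
    rw [Finset.mem_filter] at ha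
    exact (U2_ea (not_lt.1 ha.2)).pow _
  · rw [h3, h4, h6, h7]
    ring

theorem zpow_mem_F2 {x : F0 C} (hx : x ∈ F2 C) (k : ℤ) : x ^ k ∈ F2 C := (F2 C).pow_mem hx k

/-- a rational function whose orders on `|t| > 1` are divisible by `n` -/
theorem divOn_rat {n : ℕ} {g : RatFunc C} (hg : g ≠ 0)
    (h : ∀ p ∈ Out C 1, (n : ℤ) ∣ ord p g) :
    DivOn n (algebraMap (RatFunc C) (F0 C) g) := by
  classical
  set P := g.num with hPdef
  set Q := g.denom with hQdef
  have hP : P ≠ 0 := RatFunc.num_ne_zero hg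
  have hQ : Q ≠ 0 := g.denom_ne_zero
  have hPn : algebraMap C[X] (RatFunc C) P ≠ 0 := RatFunc.algebraMap_ne_zero hP
  have hQn : algebraMap C[X] (RatFunc C) Q ≠ 0 := RatFunc.algebraMap_ne_zero hQ
  set S : Finset C := (P.roots.toFinset ∪ Q.roots.toFinset).filter fun a => 1 < ‖a‖ with hS
  obtain ⟨u₁, hu₁, h1⟩ := poly_out hP S (fun a ha h1 => Finset.mem_filter.2
    ⟨Finset.mem_union_left _ (Multiset.mem_toFinset.2 ha), h1⟩) fun a ha => (Finset.mem_filter.1 ha).2
  obtain ⟨u₂, hu₂, h2⟩ := poly_out hQ S (fun a ha h1 => Finset.mem_filter.2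
    ⟨Finset.mem_union_right _ (Multiset.mem_toFinset.2 ha), h1⟩) fun a ha => (Finset.mem_filter.1 ha).2
  -- orders
  have ho : ∀ a ∈ S, (n : ℤ) ∣ (P.rootMultiplicity a : ℤ) - Q.rootMultiplicity a := by
    intro a ha
    obtain ⟨p, hp⟩ := exists_place a
    have hpO : p ∈ Out C 1 := by
      rw [mem_Out_iff]
      refine Or.inl ⟨a, ?_, hp⟩
      rw [norm_one]
      exact (Finset.mem_filter.1 ha).2
    have h3 := h p hpO
    have h4 : ord p g = (P.rootMultiplicity a : ℤ) - Q.rootMultiplicity a := by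
      conv_lhs => rw [← RatFunc.num_div_denom g, div_eq_mul_inv]
      rw [ord_mul p hPn (inv_ne_zero hQn), ord_inv, ord_poly_eq hp hP, ord_poly_eq hp hQ,
        ord_X_sub hp]
      ring
    rwa [h4] at h3
  have hd : (n : ℤ) ∣ (P.natDegree : ℤ) - Q.natDegree := by
    obtain ⟨p, hp⟩ := exists_place_inf (C := C)
    have hpO : p ∈ Out C 1 := by
      rw [mem_Out_iff]
      exact Or.inr hp
    have h3 := h p hpO
    have h4 : ord p g = -((P.natDegree : ℤ) - Q.natDegree) := by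
      conv_lhs => rw [← RatFunc.num_div_denom g, div_eq_mul_inv]
      rw [ord_mul p hPn (inv_ne_zero hQn), ord_inv, ord_poly_inf' hp hP, ord_poly_inf' hp hQ]
      ring
    rw [h4] at h3
    exact (dvd_neg).1 h3
  choose! k hk using ho
  obtain ⟨d, hd⟩ := hd
  have ht := tt_ne0 (C := C)
  refine ⟨(tt C) ^ d * ∏ a ∈ S, ea a ^ k a, ?_, ?_, u₁ * u₂⁻¹, hu₁.mul hu₂.inv, ?_⟩
  · exact (F2 C).mul_mem (zpow_mem_F2 tt_mem_F2 _) ((F2 C).prod_mem fun a _ =>
      zpow_mem_F2 (ea_mem_F2 a) _)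
  · exact mul_ne_zero (zpow_ne_zero _ ht)
      (Finset.prod_ne_zero_iff.2 fun a _ => zpow_ne_zero _ (ea_ne_zero a))
  · have h5 : ∀ a ∈ S, ea a ^ P.rootMultiplicity a =
        (ea a ^ k a) ^ n * ea a ^ Q.rootMultiplicity a := by
      intro a ha
      have h6 := hk a ha
      rw [← zpow_natCast (ea a ^ k a), ← zpow_mul, ← zpow_natCast, ← zpow_natCast,
        ← zpow_add₀ (ea_ne_zero a)]
      congr 1
      linear_combination h6
    have h6 : (tt C) ^ P.natDegree = ((tt C) ^ d) ^ n * (tt C) ^ Q.natDegree := by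
      rw [← zpow_natCast ((tt C) ^ d), ← zpow_mul, ← zpow_natCast, ← zpow_natCast,
        ← zpow_add₀ ht]
      congr 1
      linear_combination hd
    have h7 : ∏ a ∈ S, ea a ^ P.rootMultiplicity a =
        (∏ a ∈ S, ea a ^ k a) ^ n * ∏ a ∈ S, ea a ^ Q.rootMultiplicity a := by
      rw [Finset.prod_congr rfl h5, Finset.prod_mul_distrib, Finset.prod_pow]
    rw [algebraMap_rat_eq, ← hPdef, ← hQdef, h1, h2, h6, h7]
    have h8 := hu₂.2.2
    have h9 : ∏ a ∈ S, ea a ^ Q.rootMultiplicity a ≠ 0 :=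
      Finset.prod_ne_zero_iff.2 fun a _ => pow_ne_zero _ (ea_ne_zero a)
    have h10 := pow_ne_zero Q.natDegree ht
    rw [mul_pow, div_eq_iff (mul_ne_zero (mul_ne_zero h10 h8) h9)]
    linear_combination (-((tt C ^ d) ^ n * (∏ a ∈ S, ea a ^ k a) ^ n * u₁ * (tt C) ^ Q.natDegree *
      ∏ a ∈ S, ea a ^ Q.rootMultiplicity a)) * (inv_mul_cancel₀ h8)

/-- an element of `F2` whose orders on `|t| > 1` are divisible by `n` -/
theorem divOn_of_v2 {n : ℕ} {x : F2 C} (hx : x ≠ 0)
    (h : ∀ p ∈ Out C 1, (n : ℤ) ∣ v2 C p x) : DivOn n (x : F0 C) := by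
  obtain ⟨g, hg, k, hk, hk1, hgk⟩ := (half2 C).rep hx
  obtain ⟨G, hG, hG0, w, hw, hgw⟩ := divOn_rat (n := n) hg fun p hp => by
    rw [← v2_eq hp hg hk hk1 hgk]
    exact h p hp
  refine ⟨G, hG, hG0, w * (1 + k), hw.mul (U2.one_add hk hk1), ?_⟩
  rw [hgk, hgw, mul_assoc]

/-! ## The charts -/

variable [CharZero C] {K : Type v} [Field K] [Algebra C K]
  [Algebra (RatFunc C) K] [IsScalarTower C (RatFunc C) K]
  [FiniteDimensional (RatFunc C) K] [CFF C K]

/-- **T2a**, local form: divisibility only at the places in the disc -/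
theorem divOn_of_dvd_T (D : P025H210.Charts C K) (P : P025H210.Pole C K) (γ : Cˣ)
    (hr : D.r0 ≤ ‖(γ : C)‖ ^ P.N) {n : ℕ} {f : K} (hf : f ≠ 0)
    (h : ∀ Q : Plk C K, (∀ a : C, ‖a‖ ≤ ‖(γ : C)‖ ^ P.N →
      ord Q (P025H210.TT C K - algebraMap C K a) ≤ 0) → (n : ℤ) ∣ ord Q f) :
    DivOn n ((D.ψ P γ f : F2 C) : F0 C) := by
  refine divOn_of_v2 ((_root_.map_ne_zero (D.ψ P γ)).2 hf) fun p hp => ?_
  have hdv := P025H469.DV.comp ((side2 C).dv p hp) (D.ψ P γ : K →+* F2 C)
  have hk : ∀ a : C, v2 C p ((D.ψ P γ : K →+* F2 C) (algebraMap C K a)) = 0 := by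
    intro a
    have h1 : (D.ψ P γ : K →+* F2 C) (algebraMap C K a) =
        algebraMap (RatFunc C) (F2 C) (RatFunc.C a) := by
      change D.ψ P γ (algebraMap C K a) = _
      rw [AlgHom.commutes]
      rfl
    rw [h1, (side2 C).comp p hp, ord_C]
  by_cases hne : ∃ y, v2 C p ((D.ψ P γ : K →+* F2 C) y) ≠ 0
  swap
  · push Not at hne
    rw [show v2 C p (D.ψ P γ f) = 0 from hne f]
    exact dvd_zero _
  obtain ⟨Q, e, he, hQ, -⟩ := P025H469.exists_place_of_dv hdv hk hne
  have h1 : v2 C p (D.ψ P γ f) = e * ord Q f := hQ f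
  rw [h1]
  refine Dvd.dvd.mul_left (h Q fun a ha => ?_) _
  by_contra hcon
  rw [not_le] at hcon
  have hγN : ((γ : C) ^ P.N) ≠ 0 := pow_ne_zero _ γ.ne_zero
  set b : C := ((γ : C) ^ P.N)⁻¹ * a with hb
  have hb1 : ‖b‖ ≤ 1 := by
    rw [hb, norm_mul, norm_inv, norm_pow, inv_mul_le_iff₀ (by
      rw [← norm_pow]
      exact norm_pos_iff.2 hγN), mul_one]
    exact ha
  have h2 : D.ψ P γ (P025H210.TT C K - algebraMap C K a) =
      algebraMap (RatFunc C) (F2 C) (RatFunc.C ((γ : C) ^ P.N) *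
        algebraMap C[X] (RatFunc C) (X ^ P.N - Polynomial.C b)) := by
    have h3 : algebraMap C (F2 C) a = algebraMap (RatFunc C) (F2 C) (RatFunc.C a) := rfl
    have h4 : algebraMap C (F2 C) ((γ : C) ^ P.N) =
      algebraMap (RatFunc C) (F2 C) (RatFunc.C ((γ : C) ^ P.N)) := rfl
    have h5 : (RatFunc.C a : RatFunc C) = RatFunc.C ((γ : C) ^ P.N) * RatFunc.C b := by
      rw [← map_mul, hb, mul_inv_cancel_left₀ hγN]
    have h6 : algebraMap C[X] (RatFunc C) (X ^ P.N - Polynomial.C b) =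
        RatFunc.X ^ P.N - RatFunc.C b := by
      rw [map_sub, map_pow, RatFunc.algebraMap_X, RatFunc.algebraMap_C]
    rw [map_sub (D.ψ P γ), D.map_T P γ hr, AlgHom.commutes, h3, h4, h6, mul_sub, ← h5,
      map_sub (algebraMap (RatFunc C) (F2 C)), map_mul (algebraMap (RatFunc C) (F2 C)),
      map_pow (algebraMap (RatFunc C) (F2 C)) RatFunc.X]
    rfl
  have h3 := hQ (P025H210.TT C K - algebraMap C K a)
  have hN := P.N_pos
  have hpoly : (X ^ P.N - Polynomial.C b : C[X]) ≠ 0 := X_pow_sub_C_ne_zero hN b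
  have h4 : v2 C p ((D.ψ P γ : K →+* F2 C) (P025H210.TT C K - algebraMap C K a)) =
      ord p (algebraMap C[X] (RatFunc C) (X ^ P.N - Polynomial.C b)) := by
    change v2 C p (D.ψ P γ (P025H210.TT C K - algebraMap C K a)) = _
    have hc : (RatFunc.C ((γ : C) ^ P.N) : RatFunc C) ≠ 0 := by
      rw [ratFunc_C_eq]
      exact (_root_.map_ne_zero _).2 hγN
    rw [h2, (side2 C).comp p hp, ord_mul p hc (RatFunc.algebraMap_ne_zero hpoly), ord_C, zero_add]
  have h5 : ord p (algebraMap C[X] (RatFunc C) (X ^ P.N - Polynomial.C b)) ≤ 0 := by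
    rcases mem_Out_iff.1 hp with ⟨c, hc, hpc⟩ | hinf
    · rw [norm_one] at hc
      refine (ord_poly_eq_zero hpc ?_).le
      rw [eval_sub, eval_pow, eval_X, eval_C, sub_ne_zero]
      intro h6
      have h7 : 1 < ‖c ^ P.N‖ := by
        rw [norm_pow]
        exact one_lt_pow₀ hc hN.ne'
      rw [h6] at h7
      exact absurd hb1 (not_le.2 h7)
    · rw [ord_poly_inf' hinf hpoly]
      omega
  rw [h4] at h3
  have he' : (0 : ℤ) < e := by exact_mod_cast he
  have := mul_pos he' hcon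
  omega

/-- **T2a.** divisibility of orders on the disc -/
theorem divOn_of_dvd (D : P025H210.Charts C K) (P : P025H210.Pole C K) (γ : Cˣ)
    (hr : D.r0 ≤ ‖(γ : C)‖ ^ P.N) {n : ℕ} {f : K} (hf : f ≠ 0)
    (h : ∀ P' : Plk C K, (n : ℤ) ∣ ord P' f) :
    DivOn n ((D.ψ P γ f : F2 C) : F0 C) :=
  divOn_of_dvd_T D P γ hr hf fun Q _ => h Q

end

end P025H908
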